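import Vale.Agent.P171.Ident

open MeasureTheory Filter Topology Vale.Agent.P171

theorem Vale.Agent.Results.P171.PhaseTransition.result :
    ∃ φ : ℝ → ℝ, Measurable φ ∧ LocallyBdd φ ∧ Stable φ ∧ Tempered φ ∧ IntegrableTail φ ∧
      ∃ β : ℝ, 0 < β ∧
        (∀ (L : ℝ) (N : ℕ), 0 < L → IntegrableOn (boltz φ β N) (confs L N)) ∧
        (∀ z L : ℝ, 0 < z → 0 < L → Summable fun N : ℕ => z ^ N * canonicalZ φ β L N) ∧
        ∃ P : ℝ → ℝ,
          (∀ z : ℝ, 0 < z →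
            Tendsto (fun L : ℝ => Real.log (grandZ φ β z L) / L ^ 3) atTop (𝓝 (P z))) ∧
          ∃ z₀ : ℝ, 0 < z₀ ∧ ¬ DifferentiableAt ℝ P z₀ :=
  main
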